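import Mathlib

/-!
# Zero divisors in group algebras specialise to finite fields

If `α * β = 0` in `K[G]`, then for every natural number `N` with `N ≠ 0` in `K` there is a finite
field `F` in which `N ≠ 0`, and elements of `F[G]` with the same supports as `α` and `β` and with
product zero.
-/

namespace Vale.Agent.Results.P201.A_finite_fields

open MonoidAlgebra

universe u v

/-- The integers form a Jacobson ring. -/
theorem isJacobsonRing_int : IsJacobsonRing ℤ := by
  rw [isJacobsonRing_iff_prime_eq]
  intro P hP
  by_cases h : P = ⊥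
  · subst h
    refine le_antisymm ?_ Ideal.le_jacobson
    intro a ha
    by_contra hne
    have ha0 : a ≠ 0 := by simpa using hne
    obtain ⟨p, hpge, hp⟩ := Nat.exists_infinite_primes (a.natAbs + 1)
    have hmax : (Ideal.span {(p : ℤ)}).IsMaximal :=
      PrincipalIdealRing.isMaximal_of_irreducible (Nat.prime_iff_prime_int.mp hp).irreducible
    have hmem : a ∈ Ideal.span {(p : ℤ)} := by
      rw [Ideal.jacobson, Ideal.mem_sInf] at ha
      exact ha ⟨bot_le, hmax⟩
    rw [Ideal.mem_span_singleton] at hmem
    have h1 : p ∣ a.natAbs := by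
      have := Int.natAbs_dvd_natAbs.mpr hmem
      simpa using this
    have h2 := Nat.le_of_dvd (Int.natAbs_pos.mpr ha0) h1
    omega
  · have hmax := hP.isMaximal h
    exact Ideal.jacobson_eq_self_of_isMaximal

/-- A field which is of finite type over the integers is finite. -/
theorem finite_of_finiteType_int (S : Type v) [Field S] [alg : Algebra ℤ S]
    [Algebra.FiniteType ℤ S] : Finite S := by
  have e : alg = Ring.toIntAlgebra S := Subsingleton.elim _ _
  subst e
  have hJ : IsJacobsonRing ℤ := isJacobsonRing_int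
  have hmf : Module.Finite ℤ S := finite_of_finite_type_of_isJacobsonRing ℤ S
  have hint : Algebra.IsIntegral ℤ S := Algebra.IsIntegral.of_finite ℤ S
  have hmax : ((⊥ : Ideal S).comap (algebraMap ℤ S)).IsMaximal :=
    Ideal.isMaximal_comap_of_isIntegral_of_isMaximal (⊥ : Ideal S)
  -- the kernel is nonzero
  have hne : (⊥ : Ideal S).comap (algebraMap ℤ S) ≠ ⊥ := by
    intro h
    have hinj : Function.Injective (algebraMap ℤ S) := by
      refine (injective_iff_map_eq_zero _).mpr ?_
      intro a ha
      have : a ∈ (⊥ : Ideal S).comap (algebraMap ℤ S) := by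
        rw [Ideal.mem_comap, ha]
        exact Ideal.zero_mem _
      rw [h] at this
      simpa using this
    -- then `1/2` is integral over the integers, which is impossible
    have h2 : (2 : S) ≠ 0 := by
      intro h2
      have := hinj (a₁ := 2) (a₂ := 0) (by simpa using h2)
      norm_num at this
    have hi : IsIntegral ℤ ((2 : S)⁻¹) := Algebra.IsIntegral.isIntegral _
    obtain ⟨p, hp, hev⟩ := hi
    have hS : CharZero S := by
      have : CharZero ℤ := inferInstance
      exact charZero_of_injective_algebraMap hinj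
    have hq : IsIntegral ℤ ((2 : ℚ)⁻¹) := by
      refine ⟨p, hp, ?_⟩
      have e : (algebraMap ℚ S) ((2 : ℚ)⁻¹) = (2 : S)⁻¹ := by simp
      have : algebraMap ℚ S (Polynomial.eval₂ (algebraMap ℤ ℚ) ((2 : ℚ)⁻¹) p) = 0 := by
        rw [Polynomial.hom_eval₂, e]
        have hc : (algebraMap ℚ S).comp (algebraMap ℤ ℚ) = algebraMap ℤ S :=
          RingHom.ext_int _ _
        rw [hc]
        exact hev
      exact (map_eq_zero_iff (algebraMap ℚ S) (algebraMap ℚ S).injective).mp this
    obtain ⟨z, hz⟩ := IsIntegrallyClosed.isIntegral_iff.mp hq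
    have h3 : ((z : ℤ) : ℚ) * 2 = 1 := by
      have : algebraMap ℤ ℚ z = (2 : ℚ)⁻¹ := hz
      simp only [eq_intCast] at this
      rw [this]
      norm_num
    have h4 : z * 2 = 1 := by exact_mod_cast h3
    omega
  -- so some nonzero integer vanishes in `S`
  obtain ⟨a, ha, ha0⟩ := Submodule.exists_mem_ne_zero_of_ne_bot hne
  have ha' : algebraMap ℤ S a = 0 := by
    simpa [Ideal.mem_comap] using ha
  have htor : Module.IsTorsion ℤ S := by
    intro x
    refine ⟨⟨a, mem_nonZeroDivisors_of_ne_zero ha0⟩, ?_⟩
    change a • x = 0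
    rw [zsmul_eq_mul]
    have : ((a : ℤ) : S) = algebraMap ℤ S a := by simp
    rw [this, ha', zero_mul]
  exact Module.finite_of_fg_torsion S htor

/-- An element of `K[G]` whose coefficients lie in a subring lifts to the subring. -/
theorem exists_lift {K : Type v} [Field K] (A : Subalgebra ℤ K) {G : Type u} [Group G]
    (x : MonoidAlgebra K G) (hx : ∀ g, x.coeff g ∈ A) :
    ∃ y : MonoidAlgebra A G, mapRingHom G A.val.toRingHom y = x := by
  classical
  refine ⟨ofCoeff (Finsupp.onFinset x.coeff.support (fun g => (⟨x.coeff g, hx g⟩ : A)) ?_), ?_⟩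
  · intro g hg
    rw [Finsupp.mem_support_iff]
    intro h0
    apply hg
    ext
    simpa using h0
  · ext g
    simp

/-- **Specialisation of zero divisors to finite fields.**  If `α * β = 0` in `K[G]` and `N` is a
natural number which is nonzero in `K`, there are a finite field `F` with `N ≠ 0` in `F` and
`α', β'` in `F[G]` with `α' * β' = 0`, with the same supports as `α` and `β`. -/
theorem result {G : Type u} [Group G] {K : Type v} [Field K]
    (α β : MonoidAlgebra K G) (hαβ : α * β = 0) (N : ℕ) (hN : (N : K) ≠ 0) :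
    ∃ (F : Type) (_ : Field F) (_ : Finite F) (α' β' : MonoidAlgebra F G),
      α' * β' = 0 ∧ (N : F) ≠ 0 ∧ α'.coeff.support = α.coeff.support ∧
        β'.coeff.support = β.coeff.support := by
  classical
  let cs : Finset K :=
    α.coeff.support.image α.coeff ∪ β.coeff.support.image β.coeff ∪ {(N : K)}
  let s : Finset K := cs ∪ cs.image (fun x => x⁻¹)
  let A : Subalgebra ℤ K := Algebra.adjoin ℤ (s : Set K)
  have hmem : ∀ x : K, x ∈ s → x ∈ A := fun x hx => Algebra.subset_adjoin (by exact_mod_cast hx)
  have hcs : ∀ x : K, x ∈ cs → x ∈ A := fun x hx => hmem x (Finset.mem_union_left _ hx)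
  have hinv : ∀ x : K, x ∈ cs → x⁻¹ ∈ A := fun x hx =>
    hmem _ (Finset.mem_union_right _ (Finset.mem_image_of_mem _ hx))
  have hne : ∀ x : K, x ∈ cs → x ≠ 0 := by
    intro x hx
    simp only [cs, Finset.mem_union, Finset.mem_image, Finset.mem_singleton] at hx
    rcases hx with ((⟨g, hg, rfl⟩ | ⟨g, hg, rfl⟩) | rfl)
    · exact Finsupp.mem_support_iff.mp hg
    · exact Finsupp.mem_support_iff.mp hg
    · exact hN
  have hαc : ∀ g, α.coeff g ∈ A := by
    intro g
    by_cases hg : g ∈ α.coeff.support
    · exact hcs _ (by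
        simp only [cs, Finset.mem_union, Finset.mem_image]
        exact Or.inl (Or.inl ⟨g, hg, rfl⟩))
    · rw [Finsupp.notMem_support_iff.mp hg]
      exact A.zero_mem
  have hβc : ∀ g, β.coeff g ∈ A := by
    intro g
    by_cases hg : g ∈ β.coeff.support
    · exact hcs _ (by
        simp only [cs, Finset.mem_union, Finset.mem_image]
        exact Or.inl (Or.inr ⟨g, hg, rfl⟩))
    · rw [Finsupp.notMem_support_iff.mp hg]
      exact A.zero_mem
  obtain ⟨a, ha⟩ := exists_lift A α hαc
  obtain ⟨b, hb⟩ := exists_lift A β hβc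
  let ι : MonoidAlgebra A G →+* MonoidAlgebra K G := mapRingHom G A.val.toRingHom
  have hι : Function.Injective ι := by
    refine (injective_iff_map_eq_zero _).mpr ?_
    intro y hy
    ext g
    have := congrArg (fun x => x.coeff g) hy
    simpa [ι] using this
  have hab : a * b = 0 := by
    apply hι
    rw [map_mul, map_zero]
    change mapRingHom G A.val.toRingHom a * mapRingHom G A.val.toRingHom b = 0
    rw [ha, hb, hαβ]
  -- residue field at a maximal ideal
  obtain ⟨m, hm⟩ := Ideal.exists_maximal A
  let _ : Field (A ⧸ m) := Ideal.Quotient.field m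
  have hfgA : Algebra.FiniteType ℤ A :=
    (Subalgebra.fg_iff_finiteType A).mp ⟨s, rfl⟩
  have hft : Algebra.FiniteType ℤ (A ⧸ m) :=
    Algebra.FiniteType.of_surjective (Ideal.Quotient.mkₐ ℤ m) (Ideal.Quotient.mkₐ_surjective ℤ m)
  have hfin : Finite (A ⧸ m) := finite_of_finiteType_int (A ⧸ m)
  -- elements of `cs` stay nonzero
  have hunit : ∀ x : A, (x : K) ∈ cs → Ideal.Quotient.mk m x ≠ 0 := by
    intro x hx h0
    let y : A := ⟨(x : K)⁻¹, hinv _ hx⟩
    have hxy : x * y = 1 := by
      apply Subtype.ext
      change (x : K) * (x : K)⁻¹ = 1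
      exact mul_inv_cancel₀ (hne _ hx)
    have : Ideal.Quotient.mk m x * Ideal.Quotient.mk m y = 1 := by
      rw [← map_mul, hxy, map_one]
    rw [h0, zero_mul] at this
    exact zero_ne_one this
  -- transport to `Type`
  have hsmall : Small.{0} (A ⧸ m) := Countable.toSmall _
  let F : Type := Shrink.{0} (A ⧸ m)
  let e' : (A ⧸ m) ≃+* F := (Shrink.ringEquiv (A ⧸ m)).symm
  have hfin' : Finite F := Finite.of_equiv _ e'.toEquiv
  let φ : A →+* F := e'.toRingHom.comp (Ideal.Quotient.mk m)
  have hφ : ∀ x : A, (x : K) ∈ cs → φ x ≠ 0 := by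
    intro x hx h0
    apply hunit x hx
    have : e' (Ideal.Quotient.mk m x) = 0 := h0
    exact (map_eq_zero_iff e' e'.injective).mp this
  let π : MonoidAlgebra A G →+* MonoidAlgebra F G := mapRingHom G φ
  have hcoef : ∀ (x : MonoidAlgebra A G) (g : G), (π x).coeff g = φ (x.coeff g) := by
    intro x g
    simp [π]
  have hacoef : ∀ g, ((a.coeff g : A) : K) = α.coeff g := by
    intro g
    rw [← ha]
    simp
  have hbcoef : ∀ g, ((b.coeff g : A) : K) = β.coeff g := by
    intro g
    rw [← hb]
    simp
  refine ⟨F, inferInstance, hfin', π a, π b, ?_, ?_, ?_, ?_⟩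
  · rw [← map_mul, hab, map_zero]
  · have hNA : ((N : A) : K) = (N : K) := by simp
    have : φ (N : A) ≠ 0 := hφ _ (by
      rw [hNA]
      simp [cs])
    rwa [map_natCast] at this
  · ext g
    simp only [Finsupp.mem_support_iff]
    rw [hcoef]
    constructor
    · intro h h0
      apply h
      have : a.coeff g = 0 := by
        apply Subtype.ext
        rw [hacoef, h0]
        rfl
      rw [this, map_zero]
    · intro h
      refine hφ _ ?_
      rw [hacoef]
      simp only [cs, Finset.mem_union, Finset.mem_image]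
      exact Or.inl (Or.inl ⟨g, Finsupp.mem_support_iff.mpr h, rfl⟩)
  · ext g
    simp only [Finsupp.mem_support_iff]
    rw [hcoef]
    constructor
    · intro h h0
      apply h
      have : b.coeff g = 0 := by
        apply Subtype.ext
        rw [hbcoef, h0]
        rfl
      rw [this, map_zero]
    · intro h
      refine hφ _ ?_
      rw [hbcoef]
      simp only [cs, Finset.mem_union, Finset.mem_image]
      exact Or.inl (Or.inr ⟨g, Finsupp.mem_support_iff.mpr h, rfl⟩)

end Vale.Agent.Results.P201.A_finite_fields
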